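import Vale.Agent.Lib.P202.Moves

/-!
Flat relations on minimal generators and the containment of powers.
-/

namespace Vale.Agent.Lib.P202

open Finset IsLocalRing

universe u v

open Classical in
/-- Every finitely generated ideal has an irredundant finite generating set. -/
lemma exists_min_gens {R : Type u} [CommRing R] (J : Ideal R) (hJ : J.FG) :
    ∃ A : Finset R, Ideal.span (A : Set R) = J ∧
      ∀ a ∈ A, a ∉ Ideal.span ((A.erase a : Finset R) : Set R) := by
  obtain ⟨A₀, h₀⟩ := hJ
  have key : ∀ n : ℕ, ∀ A : Finset R, A.card = n → Ideal.span (A : Set R) = J →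
      ∃ B : Finset R, Ideal.span (B : Set R) = J ∧
        ∀ a ∈ B, a ∉ Ideal.span ((B.erase a : Finset R) : Set R) := by
    intro n
    induction n using Nat.strong_induction_on with
    | _ n ih =>
      intro A hA hspan
      by_cases hmin : ∀ a ∈ A, a ∉ Ideal.span ((A.erase a : Finset R) : Set R)
      · exact ⟨A, hspan, hmin⟩
      · push Not at hmin
        obtain ⟨a, ha, hmem⟩ := hmin
        refine ih (A.erase a).card ?_ (A.erase a) rfl ?_
        · rw [← hA]
          exact Finset.card_erase_lt_of_mem ha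
        · rw [← hspan]
          apply le_antisymm
          · exact Ideal.span_mono (by simp)
          · rw [Ideal.span_le]
            intro b hb
            by_cases hab : b = a
            · rw [hab]; exact hmem
            · apply Ideal.subset_span
              simp only [Finset.coe_erase, Set.mem_sdiff, Finset.mem_coe, Set.mem_singleton_iff]
              exact ⟨hb, hab⟩
  exact key _ A₀ rfl h₀

open Classical in
/-- A relation on an irredundant generating set with coefficients in a flat algebra has
all coefficients in the extension of the maximal ideal. -/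
lemma flat_relation {R : Type u} {S : Type v} [CommRing R] [IsLocalRing R] [CommRing S]
    [Algebra R S] [Module.Flat R S] (A : Finset R)
    (hA : ∀ a ∈ A, a ∉ Ideal.span ((A.erase a : Finset R) : Set R))
    (g : R → S) (hg : ∑ a ∈ A, algebraMap R S a * g a = 0) :
    ∀ a ∈ A, g a ∈ (maximalIdeal R).map (algebraMap R S) := by
  have hsum : ∑ i : A, (i : R) • g i = 0 := by
    rw [Finset.sum_coe_sort A (fun a => a • g a)]
    simpa [Algebra.smul_def] using hg
  obtain ⟨l, a, z, hx, hf⟩ := Module.Flat.isTrivialRelation_of_sum_smul_eq_zero (R := R) (M := S) hsum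
  intro a₀ ha₀
  have hmem : ∀ j, a ⟨a₀, ha₀⟩ j ∈ maximalIdeal R := by
    intro j
    by_contra hnot
    have hunit : IsUnit (a ⟨a₀, ha₀⟩ j) := by
      by_contra h
      exact hnot ((mem_maximalIdeal _).mpr h)
    obtain ⟨u, hu⟩ := hunit
    have h1 := hf j
    rw [← Finset.add_sum_erase univ _ (Finset.mem_univ (⟨a₀, ha₀⟩ : A))] at h1
    have h2 : ∑ i ∈ univ.erase (⟨a₀, ha₀⟩ : A), (i : R) * a i j ∈
        Ideal.span ((A.erase a₀ : Finset R) : Set R) := by
      refine Ideal.sum_mem _ (fun i hi => Ideal.mul_mem_right _ _ (Ideal.subset_span ?_))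
      have hi' : i ≠ ⟨a₀, ha₀⟩ := (Finset.mem_erase.mp hi).1
      have hi'' : (i : R) ≠ a₀ := fun h => hi' (Subtype.ext h)
      simp only [Finset.coe_erase, Set.mem_sdiff, Finset.mem_coe, Set.mem_singleton_iff]
      exact ⟨i.2, hi''⟩
    have h3 : a₀ * a ⟨a₀, ha₀⟩ j ∈ Ideal.span ((A.erase a₀ : Finset R) : Set R) := by
      have : a₀ * a ⟨a₀, ha₀⟩ j = - ∑ i ∈ univ.erase (⟨a₀, ha₀⟩ : A), (i : R) * a i j :=
        eq_neg_of_add_eq_zero_left h1
      rw [this]
      exact neg_mem h2
    apply hA a₀ ha₀
    have h4 := Ideal.mul_mem_right (((u⁻¹ : Rˣ) : R))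
      (Ideal.span ((A.erase a₀ : Finset R) : Set R)) h3
    rw [← hu, mul_assoc, Units.mul_inv, mul_one] at h4
    exact h4
  have hx' := hx ⟨a₀, ha₀⟩
  show g a₀ ∈ _
  have : g a₀ = ∑ j, a ⟨a₀, ha₀⟩ j • z j := hx'
  rw [this]
  refine Ideal.sum_mem _ (fun j _ => ?_)
  rw [Algebra.smul_def]
  exact Ideal.mul_mem_right _ _ (Ideal.mem_map_of_mem _ (hmem j))

section contain

variable {R : Type u} {S : Type v} [CommRing R] [IsLocalRing R] [IsNoetherianRing R] [CommRing S]
  [IsLocalRing S] [Algebra R S] [Module.Flat R S] [IsLocalHom (algebraMap R S)]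

theorem contain_pow {w : ℕ} (hw : 2 ≤ w) (y : Fin w → S)
    (hgen : maximalIdeal S = (maximalIdeal R).map (algebraMap R S) ⊔ Ideal.span (Set.range y))
    (t r : ℕ) (hrt : r < t)
    (hLoewy : maximalIdeal S ^ t ≤ (maximalIdeal R).map (algebraMap R S))
    (hindep : ∀ j ≤ r, ∀ τ : (Fin w → ℕ) → S,
      (∑ γ ∈ piAntidiag (univ : Finset (Fin w)) j, τ γ * mon y γ) ∈
        maximalIdeal S ^ (j + 1) ⊔ (maximalIdeal R).map (algebraMap R S) →
        ∀ γ ∈ piAntidiag (univ : Finset (Fin w)) j, τ γ ∈ maximalIdeal S) (e : ℕ) :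
    maximalIdeal S ^ ((t - r) * (e + 1) + r) ≤
      ((maximalIdeal R).map (algebraMap R S)) ^ (e + 1) := by
  classical
  set I := (maximalIdeal R).map (algebraMap R S) with hI
  set n := maximalIdeal S with hn
  have hlam : 1 ≤ t - r := by omega
  have hyN : ∀ i, y i ∈ n := by
    intro i
    rw [hgen]
    exact Ideal.mem_sup_right (Ideal.subset_span ⟨i, rfl⟩)
  have hYn : Ideal.span (Set.range y) ≤ n := by
    rw [Ideal.span_le]
    rintro _ ⟨i, rfl⟩
    exact hyN i
  induction e with
  | zero =>
    have : (t - r) * (0 + 1) + r = t := by omega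
    rw [this]
    simpa using hLoewy
  | succ e ih =>
    set D := (t - r) * (e + 1) + r with hD
    have hrD : r < D := by
      have : 1 ≤ (t - r) * (e + 1) := Nat.mul_pos hlam (by omega)
      omega
    obtain ⟨A, hAspan, hAmin⟩ := exists_min_gens (maximalIdeal R ^ (e + 1))
      (IsNoetherian.noetherian _)
    have hIA : I ^ (e + 1) = Ideal.span ((algebraMap R S) '' (A : Set R)) := by
      rw [hI, ← Ideal.map_pow, ← hAspan, Ideal.map_span]
    have hex : ∀ β : Fin w → ℕ, ∃ c : R → S, ∑ i, β i = D →
        ∑ a ∈ A, algebraMap R S a * c a = mon y β := by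
      intro β
      by_cases hβ : ∑ i, β i = D
      · have h1 := mon_mem_pow y n hyN β
        rw [hβ] at h1
        have h2 := ih h1
        rw [hIA] at h2
        obtain ⟨c, hc⟩ := (Submodule.mem_span_image_finset_iff_exists_fun' S).mp h2
        refine ⟨c, fun _ => ?_⟩
        rw [← hc]
        simp [smul_eq_mul, mul_comm]
      · exact ⟨0, fun h => absurd h hβ⟩
    choose c hc using hex
    have hcoef : ∀ a ∈ A, ∀ β : Fin w → ℕ, ∑ i, β i = D → c β a ∈ n ^ r ⊔ I := by
      intro a ha
      refine coeff_mem y I n hw hgen r hindep D hrD (fun β => c β a) ?_ r le_rfl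
      intro μ hμ i k hik
      refine flat_relation A hAmin
        (fun a => y i * c (μ + Pi.single k 1) a - y k * c (μ + Pi.single i 1) a) ?_ a ha
      simp only [mul_sub]
      rw [Finset.sum_sub_distrib]
      have h1 : ∑ a ∈ A, algebraMap R S a * (y i * c (μ + Pi.single k 1) a) =
          y i * mon y (μ + Pi.single k 1) := by
        rw [← hc (μ + Pi.single k 1) (by rw [sum_add_single_eq]; exact hμ), Finset.mul_sum]
        exact Finset.sum_congr rfl (fun _ _ => by ring)
      have h2 : ∑ a ∈ A, algebraMap R S a * (y k * c (μ + Pi.single i 1) a) =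
          y k * mon y (μ + Pi.single i 1) := by
        rw [← hc (μ + Pi.single i 1) (by rw [sum_add_single_eq]; exact hμ), Finset.mul_sum]
        exact Finset.sum_congr rfl (fun _ _ => by ring)
      rw [h1, h2, mon_add_single, mon_add_single]
      ring
    have hAI : ∀ a ∈ A, algebraMap R S a ∈ I ^ (e + 1) := by
      intro a ha
      rw [hIA]
      exact Ideal.subset_span ⟨a, ha, rfl⟩
    have hYD : Ideal.span (Set.range y) ^ D ≤ I ^ (e + 1) * (n ^ r ⊔ I) := by
      refine (span_range_pow_le y D).trans ?_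
      rw [Ideal.span_le]
      rintro _ ⟨β, hβ, rfl⟩
      have hβ' : ∑ i, β i = D := (mem_piAntidiag_iff _ _).mp hβ
      show mon y β ∈ _
      rw [← hc β hβ']
      exact Ideal.sum_mem _ (fun a ha => Ideal.mul_mem_mul (hAI a ha) (hcoef a ha β hβ'))
    have hfinal : (n ^ r ⊔ I) * n ^ (t - r) ≤ I := by
      rw [Ideal.sup_mul, ← pow_add]
      have : r + (t - r) = t := by omega
      rw [this]
      exact sup_le hLoewy Ideal.mul_le_left
    have hYK : Ideal.span (Set.range y) ^ (D + (t - r)) ≤ I ^ (e + 1 + 1) := by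
      rw [pow_add]
      refine (Ideal.mul_mono hYD (Ideal.pow_right_mono hYn _)).trans ?_
      rw [mul_assoc, pow_succ (I) (e + 1)]
      exact Ideal.mul_mono_right hfinal
    have hK : (t - r) * (e + 1 + 1) + r = (D + (t - r) - 1) + 1 := by
      have : 1 ≤ (t - r) := hlam
      rw [hD]
      have h3 : (t - r) * (e + 1 + 1) = (t - r) * (e + 1) + (t - r) := by ring
      omega
    rw [hK]
    conv_lhs => rw [hgen]
    refine (sup_pow_le_aux I _ _).trans (sup_le ?_ ?_)
    · rw [← hgen, pow_succ' I (e + 1)]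
      refine Ideal.mul_mono_right ((Ideal.pow_le_pow_right ?_).trans ih)
      omega
    · have : D + (t - r) - 1 + 1 = D + (t - r) := by omega
      rw [this]
      exact hYK

end contain

end Vale.Agent.Lib.P202
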