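import Vale.Agent.Lib.P202.Contain

/-!
Finite lengths, additivity along flat maps, the dimension of the target, and the passage to limits.
-/

namespace Vale.Agent.Lib.P202

open Finset IsLocalRing Filter Topology

universe u v

section finite

variable (A : Type u) [CommRing A] [IsLocalRing A] [IsNoetherianRing A]

lemma artinian_quot_of_pow_le (J : Ideal A) (t : ℕ) (h : maximalIdeal A ^ t ≤ J) (hJ : J ≠ ⊤) :
    IsArtinianRing (A ⧸ J) := by
  refine IsLocalRing.quotient_artinian_of_mem_minimalPrimes_of_isLocalRing J ?_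
  refine ⟨⟨inferInstance, le_maximalIdeal hJ⟩, ?_⟩
  rintro q ⟨hq, hle⟩ -
  exact Ideal.IsPrime.le_of_pow_le (h.trans hle)

lemma length_quot_ne_top (J : Ideal A) (t : ℕ) (h : maximalIdeal A ^ t ≤ J) :
    Module.length A (A ⧸ J) ≠ ⊤ := by
  rw [Module.length_ne_top_iff]
  by_cases hJ : J = ⊤
  · subst hJ
    have : Subsingleton (A ⧸ (⊤ : Ideal A)) := Ideal.Quotient.subsingleton_iff.mpr rfl
    exact IsFiniteLength.of_subsingleton
  · rw [isFiniteLength_iff_isNoetherian_isArtinian]
    have := artinian_quot_of_pow_le A J t h hJ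
    exact ⟨isNoetherian_quotient J,
      isArtinian_of_surjective_algebraMap (Ideal.Quotient.mk_surjective (I := J))⟩

variable {A} in
lemma length_quot_anti {J J' : Ideal A} (h : J ≤ J') :
    Module.length A (A ⧸ J') ≤ Module.length A (A ⧸ J) := by
  refine Module.length_le_of_surjective (Submodule.factor h) ?_
  exact Submodule.factor_surjective h

end finite

section flat

variable {R : Type u} {S : Type v} [CommRing R] [IsLocalRing R] [CommRing S] [IsLocalRing S]
  [Algebra R S] [Module.Flat R S] [IsLocalHom (algebraMap R S)]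

/-- The length of `S / J S` for `J = m ^ N`. -/
lemma length_map_pow (N : ℕ) :
    Module.length S (S ⧸ ((maximalIdeal R).map (algebraMap R S)) ^ N) =
      Module.length R (R ⧸ maximalIdeal R ^ N) *
        Module.length S (S ⧸ (maximalIdeal R).map (algebraMap R S)) := by
  rw [← IsLocalRing.length_baseChange R S (R ⧸ maximalIdeal R ^ N), ← Ideal.map_pow]
  exact (Algebra.TensorProduct.quotIdealMapEquivTensorQuot S
    (maximalIdeal R ^ N)).toLinearEquiv.length_eq

/-- Flat local maps with Artinian closed fibre preserve dimension. -/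
lemma dim_eq [IsNoetherianRing R] [IsNoetherianRing S] (t : ℕ)
    (hLoewy : maximalIdeal S ^ t ≤ (maximalIdeal R).map (algebraMap R S)) :
    ringKrullDim S = ringKrullDim R := by
  have hne : (maximalIdeal R).map (algebraMap R S) ≠ ⊤ := (map_maximalIdeal_lt_top _).ne
  have hart := artinian_quot_of_pow_le S _ t hLoewy hne
  have h := Ideal.height_eq_height_add_of_liesOver_of_hasGoingDown (maximalIdeal R)
    (maximalIdeal S)
  have hzero : ((maximalIdeal S).map (Ideal.Quotient.mk
      ((maximalIdeal R).map (algebraMap R S)))).height = 0 := by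
    have hnetop : ((maximalIdeal S).map (Ideal.Quotient.mk
        ((maximalIdeal R).map (algebraMap R S)))) ≠ ⊤ := by
      intro htop
      have h1 := Ideal.comap_map_of_surjective (Ideal.Quotient.mk
        ((maximalIdeal R).map (algebraMap R S))) Ideal.Quotient.mk_surjective (maximalIdeal S)
      rw [htop, Ideal.comap_top] at h1
      have h2 : Ideal.comap (Ideal.Quotient.mk ((maximalIdeal R).map (algebraMap R S))) ⊥ ≤
          maximalIdeal S := by
        rw [← RingHom.ker_eq_comap_bot, Ideal.mk_ker]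
        exact le_maximalIdeal hne
      rw [sup_eq_left.mpr h2] at h1
      exact Ideal.IsPrime.ne_top' h1.symm
    have h1 := Ideal.height_le_ringKrullDim_of_ne_top hnetop
    have h2 : ringKrullDim (S ⧸ (maximalIdeal R).map (algebraMap R S)) ≤ 0 :=
      (Order.krullDimLE_iff _ _).mp (inferInstance : Ring.KrullDimLE 0 _)
    have h3 := h1.trans h2
    have h4 : ((maximalIdeal S).map (Ideal.Quotient.mk
      ((maximalIdeal R).map (algebraMap R S)))).height ≤ 0 := by exact_mod_cast h3
    exact le_antisymm h4 bot_le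
  rw [hzero, add_zero] at h
  rw [← maximalIdeal_height_eq_ringKrullDim, ← maximalIdeal_height_eq_ringKrullDim, h]

end flat

section limits

lemma limit_ineq (A B : ℕ → ℕ) (d l lam r : ℕ) (hlam : 1 ≤ lam) (eA eB : ℝ)
    (hA : Tendsto (fun N : ℕ => (d.factorial : ℝ) * A N / (N : ℝ) ^ d) atTop (𝓝 eA))
    (hB : Tendsto (fun N : ℕ => (d.factorial : ℝ) * B N / (N : ℝ) ^ d) atTop (𝓝 eB))
    (h1 : ∀ N, B N ≤ l * A N) (h2 : ∀ N, 1 ≤ N → l * A N ≤ B (lam * N + r)) :
    (l : ℝ) * eA ≤ (lam : ℝ) ^ d * eB ∧ eB ≤ (l : ℝ) * eA := by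
  constructor
  · have hM : Tendsto (fun N : ℕ => lam * N + r) atTop atTop := by
      refine tendsto_atTop_mono (fun N => ?_) tendsto_id
      show N ≤ lam * N + r
      nlinarith
    have hcomp := hB.comp hM
    have hratio : Tendsto (fun N : ℕ => (((lam * N + r : ℕ) : ℝ) / (N : ℝ))) atTop (𝓝 (lam : ℝ)) := by
      have h0 : Tendsto (fun N : ℕ => (r : ℝ) / (N : ℝ)) atTop (𝓝 0) :=
        tendsto_const_div_atTop_nhds_zero_nat _
      have h3 := h0.const_add (lam : ℝ)
      rw [add_zero] at h3
      refine h3.congr' ?_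
      filter_upwards [eventually_ge_atTop 1] with N hN
      have hN' : (N : ℝ) ≠ 0 := by positivity
      push_cast
      field_simp
    have hpow := hratio.pow d
    have hprod := (hpow.mul hcomp)
    refine le_of_tendsto_of_tendsto (hA.const_mul (l : ℝ)) hprod ?_
    filter_upwards [eventually_ge_atTop 1] with N hN
    have hN' : (0 : ℝ) < (N : ℝ) := by positivity
    have hMpos : (0 : ℝ) < ((lam * N + r : ℕ) : ℝ) := by
      have : 0 < lam * N + r := by nlinarith
      exact_mod_cast this
    simp only [Function.comp]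
    have key : (((lam * N + r : ℕ) : ℝ) / (N : ℝ)) ^ d *
        ((d.factorial : ℝ) * (B (lam * N + r) : ℝ) / ((lam * N + r : ℕ) : ℝ) ^ d) =
        (d.factorial : ℝ) * (B (lam * N + r) : ℝ) / (N : ℝ) ^ d := by
      rw [div_pow]
      field_simp
    rw [key, ← mul_div_assoc]
    apply div_le_div_of_nonneg_right _ (by positivity)
    have h3 : ((l * A N : ℕ) : ℝ) ≤ (B (lam * N + r) : ℝ) := by exact_mod_cast h2 N hN
    have h4 : (0 : ℝ) ≤ (d.factorial : ℝ) := by positivity
    push_cast at h3
    nlinarith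
  · refine le_of_tendsto_of_tendsto' hB (hA.const_mul (l : ℝ)) (fun N => ?_)
    rw [← mul_div_assoc]
    apply div_le_div_of_nonneg_right _ (by positivity)
    have h3 : (B N : ℝ) ≤ ((l * A N : ℕ) : ℝ) := by exact_mod_cast h1 N
    have h4 : (0 : ℝ) ≤ (d.factorial : ℝ) := by positivity
    push_cast at h3
    nlinarith

lemma limit_nonneg (B : ℕ → ℕ) (d : ℕ) (eB : ℝ)
    (hB : Tendsto (fun N : ℕ => (d.factorial : ℝ) * B N / (N : ℝ) ^ d) atTop (𝓝 eB)) :
    0 ≤ eB := by
  refine ge_of_tendsto' hB (fun N => ?_)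
  positivity

end limits

end Vale.Agent.Lib.P202
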