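import Mathlib

/-!
Monomials in a tuple `y` and the moves lemma on coefficients.
-/

namespace Vale.Agent.Lib.P202

open Finset

universe u v

section mon

variable {S : Type v} [CommRing S] {w : ℕ} (y : Fin w → S)

/-- The monomial with exponent vector `γ`. -/
def mon (γ : Fin w → ℕ) : S := ∏ i, y i ^ γ i

lemma mon_add_single (γ : Fin w → ℕ) (i : Fin w) :
    mon y (γ + Pi.single i 1) = y i * mon y γ := by
  unfold mon
  rw [← Finset.mul_prod_erase univ _ (Finset.mem_univ i),
    ← Finset.mul_prod_erase univ (fun j => y j ^ γ j) (Finset.mem_univ i)]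
  have h : ∀ j ∈ univ.erase i, y j ^ ((γ + Pi.single i 1 : Fin w → ℕ) j) = y j ^ γ j := by
    intro j hj
    have hj' : j ≠ i := (Finset.mem_erase.mp hj).1
    simp [Pi.single_eq_of_ne hj']
  rw [Finset.prod_congr rfl h]
  simp [pow_succ]
  ring

lemma mon_zero : mon y (0 : Fin w → ℕ) = 1 := by
  simp [mon]

lemma mon_mem_pow (N : Ideal S) (hy : ∀ i, y i ∈ N) (γ : Fin w → ℕ) :
    mon y γ ∈ N ^ (∑ i, γ i) := by
  unfold mon
  rw [← Finset.prod_pow_eq_pow_sum]
  exact Ideal.prod_mem_prod (fun i _ => Ideal.pow_mem_pow (hy i) (γ i))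

lemma mem_piAntidiag_iff (j : ℕ) (γ : Fin w → ℕ) :
    γ ∈ piAntidiag (univ : Finset (Fin w)) j ↔ ∑ i, γ i = j := by
  simp [mem_piAntidiag]

lemma span_range_pow_le (j : ℕ) :
    (Ideal.span (Set.range y)) ^ j ≤
      Ideal.span ((mon y) '' (piAntidiag (univ : Finset (Fin w)) j : Finset (Fin w → ℕ))) := by
  induction j with
  | zero =>
    rw [pow_zero, Ideal.one_eq_top, top_le_iff, Ideal.eq_top_iff_one]
    apply Ideal.subset_span
    refine ⟨0, ?_, mon_zero y⟩
    simp
  | succ j ih =>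
    rw [pow_succ]
    refine (Ideal.mul_mono_left ih).trans ?_
    rw [Ideal.span_mul_span']
    rw [Ideal.span_le]
    rintro _ ⟨a, ⟨γ, hγ, rfl⟩, b, ⟨i, rfl⟩, rfl⟩
    apply Ideal.subset_span
    refine ⟨γ + Pi.single i 1, ?_, ?_⟩
    · have hγ' : ∑ i, γ i = j := (mem_piAntidiag_iff j γ).mp hγ
      simp only [Finset.mem_coe, mem_piAntidiag_iff, Pi.add_apply, Finset.sum_add_distrib, hγ']
      simp
    · rw [mon_add_single]; ring

omit [CommRing S] in
lemma sum_add_single_eq (γ : Fin w → ℕ) (i : Fin w) :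
    ∑ k, (γ + Pi.single i 1 : Fin w → ℕ) k = ∑ k, γ k + 1 := by
  simp [Finset.sum_add_distrib]

omit [CommRing S] in
lemma sum_sub_single (δ : Fin w → ℕ) (i : Fin w) (h2 : 0 < δ i) :
    ∑ k, (δ - Pi.single i 1 : Fin w → ℕ) k + 1 = ∑ k, δ k := by
  have h3 : δ = (δ - Pi.single i 1) + Pi.single i 1 := by
    funext k
    by_cases hk : k = i
    · subst hk
      simp only [Pi.add_apply, Pi.sub_apply, Pi.single_eq_same]
      omega
    · simp [Pi.single_eq_of_ne hk]
  conv_rhs => rw [h3]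
  rw [sum_add_single_eq]

omit [CommRing S] in
lemma sub_add_single_eq (δ : Fin w → ℕ) (i : Fin w) (h2 : 0 < δ i) :
    (δ - Pi.single i 1) + Pi.single i 1 = δ := by
  funext k
  by_cases hk : k = i
  · subst hk
    simp only [Pi.add_apply, Pi.sub_apply, Pi.single_eq_same]
    omega
  · simp [Pi.single_eq_of_ne hk]

omit [CommRing S] in
lemma add_sub_single_eq (δ : Fin w → ℕ) (i : Fin w) :
    (δ + Pi.single i 1) - Pi.single i 1 = δ := by
  funext k
  simp

/-- Reindexing: multiplying a form of degree `j` by `y i`. -/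
lemma sum_reindex (f : (Fin w → ℕ) → S) (j : ℕ) (i : Fin w) :
    (∑ δ ∈ piAntidiag (univ : Finset (Fin w)) (j + 1),
        (if 0 < δ i then f (δ - Pi.single i 1) else 0) * mon y δ) =
      y i * ∑ γ ∈ piAntidiag (univ : Finset (Fin w)) j, f γ * mon y γ := by
  rw [Finset.mul_sum]
  have h1 : ∀ δ, (if 0 < δ i then f (δ - Pi.single i 1) else 0) * mon y δ
      = if 0 < δ i then f (δ - Pi.single i 1) * mon y δ else 0 := by
    intro δ; split_ifs <;> simp
  simp_rw [h1]
  rw [← Finset.sum_filter]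
  symm
  refine Finset.sum_nbij' (fun γ => γ + Pi.single i 1) (fun δ => δ - Pi.single i 1) ?_ ?_ ?_ ?_ ?_
  · intro γ hγ
    have hγ' : ∑ i, γ i = j := (mem_piAntidiag_iff j γ).mp hγ
    simp only [Finset.mem_filter, mem_piAntidiag_iff, Pi.add_apply, Finset.sum_add_distrib, hγ']
    simp
  · intro δ hδ
    obtain ⟨h1, h2⟩ := Finset.mem_filter.mp hδ
    have h1' : ∑ i, δ i = j + 1 := (mem_piAntidiag_iff (j + 1) δ).mp h1
    rw [mem_piAntidiag_iff]
    have := sum_sub_single δ i h2
    omega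
  · intro γ _
    funext k
    simp
  · intro δ hδ
    obtain ⟨_, h2⟩ := Finset.mem_filter.mp hδ
    funext k
    by_cases hk : k = i
    · subst hk
      simp only [Pi.add_apply, Pi.sub_apply, Pi.single_eq_same]
      omega
    · simp [Pi.single_eq_of_ne hk]
  · intro γ _
    have h3 : γ + Pi.single i 1 - Pi.single i 1 = γ := by
      funext k; simp
    rw [h3, mon_add_single]
    ring

end mon

section moves

variable {S : Type v} [CommRing S] {w : ℕ} (y : Fin w → S) (I N : Ideal S)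

/-- Powers of `I + Y` modulo `I`. -/
lemma sup_pow_le_aux (Y : Ideal S) (K : ℕ) :
    (I ⊔ Y) ^ (K + 1) ≤ I * (I ⊔ Y) ^ K ⊔ Y ^ (K + 1) := by
  induction K with
  | zero => simp
  | succ K ih =>
    rw [pow_succ (I ⊔ Y) (K + 1)]
    refine (Ideal.mul_mono_left ih).trans ?_
    rw [Ideal.sup_mul]
    refine sup_le ?_ ?_
    · rw [mul_assoc, ← pow_succ]
      exact le_sup_left
    · rw [Ideal.mul_sup]
      refine sup_le ?_ ?_
      · refine le_trans ?_ le_sup_left
        rw [mul_comm]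
        exact Ideal.mul_mono_right (Ideal.pow_right_mono le_sup_right _)
      · rw [← pow_succ]
        exact le_sup_right

lemma sup_pow_le_sup (Y : Ideal S) (K : ℕ) : (I ⊔ Y) ^ K ≤ I ⊔ Y ^ K := by
  cases K with
  | zero => simp
  | succ K =>
    refine (sup_pow_le_aux I Y K).trans ?_
    exact sup_le_sup_right Ideal.mul_le_left _

/-- The moves step: congruences of coefficients modulo `N` force membership in `N`. -/
lemma tau_mem {D j : ℕ} (τ : (Fin w → ℕ) → (Fin w → ℕ) → S) (i k : Fin w) (hik : i ≠ k)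
    (hκ : ∀ μ : Fin w → ℕ, ∑ l, μ l + 1 = D → ∀ δ : Fin w → ℕ, ∑ l, δ l = j + 1 →
      (if 0 < δ i then τ (μ + Pi.single k 1) (δ - Pi.single i 1) else 0) -
        (if 0 < δ k then τ (μ + Pi.single i 1) (δ - Pi.single k 1) else 0) ∈ N) :
    ∀ g : ℕ, ∀ β γ : Fin w → ℕ, ∑ l, β l = D → ∑ l, γ l = j → γ i = g → γ i < β i →
      τ β γ ∈ N := by
  intro g
  induction g with
  | zero =>
    intro β γ hβ hγ hg hlt
    have hβi : 0 < β i := by omega
    have hμ := sum_sub_single β i hβi
    have h := hκ (β - Pi.single i 1) (by omega) (γ + Pi.single k 1)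
      (by rw [sum_add_single_eq, hγ])
    have hδi : ¬ 0 < (γ + Pi.single k 1 : Fin w → ℕ) i := by
      simp [Pi.single_eq_of_ne hik, hg]
    have hδk : 0 < (γ + Pi.single k 1 : Fin w → ℕ) k := by simp
    rw [if_neg hδi, if_pos hδk, sub_add_single_eq β i hβi, add_sub_single_eq, zero_sub] at h
    exact (neg_mem_iff).mp h
  | succ g ih =>
    intro β γ hβ hγ hg hlt
    have hβi : 0 < β i := by omega
    have hμ := sum_sub_single β i hβi
    have h := hκ (β - Pi.single i 1) (by omega) (γ + Pi.single k 1)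
      (by rw [sum_add_single_eq, hγ])
    have hδi : 0 < (γ + Pi.single k 1 : Fin w → ℕ) i := by
      simp [Pi.single_eq_of_ne hik, hg]
    have hδk : 0 < (γ + Pi.single k 1 : Fin w → ℕ) k := by simp
    rw [if_pos hδi, if_pos hδk, sub_add_single_eq β i hβi, add_sub_single_eq] at h
    have hs := sum_sub_single (γ + Pi.single k 1) i hδi
    rw [sum_add_single_eq, hγ] at hs
    have h2 := ih (β - Pi.single i 1 + Pi.single k 1) (γ + Pi.single k 1 - Pi.single i 1)
      (by rw [sum_add_single_eq]; omega) (by omega)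
      (by simp [Pi.single_eq_of_ne hik, hg])
      (by simp [Pi.single_eq_of_ne hik, hg]; omega)
    have := sub_mem h2 h
    simpa using this

/-- The moves lemma for coefficients. -/
theorem coeff_mem (hw : 2 ≤ w) (hN : N = I ⊔ Ideal.span (Set.range y)) (r : ℕ)
    (hindep : ∀ j ≤ r, ∀ τ : (Fin w → ℕ) → S,
      (∑ γ ∈ piAntidiag (univ : Finset (Fin w)) j, τ γ * mon y γ) ∈ N ^ (j + 1) ⊔ I →
        ∀ γ ∈ piAntidiag (univ : Finset (Fin w)) j, τ γ ∈ N)
    (D : ℕ) (hD : r < D) (c : (Fin w → ℕ) → S)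
    (hc : ∀ μ : Fin w → ℕ, ∑ i, μ i + 1 = D → ∀ i k, i ≠ k →
      y i * c (μ + Pi.single k 1) - y k * c (μ + Pi.single i 1) ∈ I) :
    ∀ j ≤ r, ∀ β : Fin w → ℕ, ∑ i, β i = D → c β ∈ N ^ j ⊔ I := by
  have hyN : ∀ i, y i ∈ N := by
    intro i
    rw [hN]
    exact Ideal.mem_sup_right (Ideal.subset_span ⟨i, rfl⟩)
  have hIN : I ≤ N := by
    rw [hN]; exact le_sup_left
  intro j
  induction j with
  | zero =>
    intro _ β _
    simp [Ideal.one_eq_top]
  | succ j ih =>
    intro hj
    have ih' := ih (by omega)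
    have hex : ∀ β : Fin w → ℕ, ∃ τ : (Fin w → ℕ) → S, ∑ i, β i = D →
        c β - ∑ γ ∈ piAntidiag (univ : Finset (Fin w)) j, τ γ * mon y γ ∈ I := by
      intro β
      by_cases hβ : ∑ i, β i = D
      · have h1 := ih' β hβ
        have h2 : N ^ j ⊔ I ≤ Ideal.span ((mon y) ''
            (piAntidiag (univ : Finset (Fin w)) j : Finset (Fin w → ℕ))) ⊔ I := by
          refine sup_le ?_ le_sup_right
          rw [hN]
          refine (sup_pow_le_sup I _ j).trans ?_
          exact sup_le le_sup_right ((span_range_pow_le y j).trans le_sup_left)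
        obtain ⟨a, ha, b, hb, hab⟩ := Submodule.mem_sup.mp (h2 h1)
        obtain ⟨τ, hτ⟩ := (Submodule.mem_span_image_finset_iff_exists_fun' S).mp ha
        refine ⟨τ, fun _ => ?_⟩
        have : c β - ∑ γ ∈ piAntidiag (univ : Finset (Fin w)) j, τ γ * mon y γ = b := by
          rw [← hab, ← hτ]
          simp [smul_eq_mul]
        rw [this]
        exact hb
      · exact ⟨0, fun h => absurd h hβ⟩
    choose τ hτ using hex
    have hκ : ∀ i k, i ≠ k → ∀ μ : Fin w → ℕ, ∑ l, μ l + 1 = D → ∀ δ : Fin w → ℕ,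
        ∑ l, δ l = j + 1 →
        (if 0 < δ i then τ (μ + Pi.single k 1) (δ - Pi.single i 1) else 0) -
          (if 0 < δ k then τ (μ + Pi.single i 1) (δ - Pi.single k 1) else 0) ∈ N := by
      intro i k hik μ hμ δ hδ
      refine hindep (j + 1) hj (fun δ =>
        (if 0 < δ i then τ (μ + Pi.single k 1) (δ - Pi.single i 1) else 0) -
          (if 0 < δ k then τ (μ + Pi.single i 1) (δ - Pi.single k 1) else 0)) ?_ δ
          ((mem_piAntidiag_iff _ _).mpr hδ)
      apply Ideal.mem_sup_right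
      simp only [sub_mul]
      rw [Finset.sum_sub_distrib, sum_reindex y (τ (μ + Pi.single k 1)) j i,
        sum_reindex y (τ (μ + Pi.single i 1)) j k]
      have h1 := hτ (μ + Pi.single k 1) (by rw [sum_add_single_eq]; exact hμ)
      have h2 := hτ (μ + Pi.single i 1) (by rw [sum_add_single_eq]; exact hμ)
      have h3 := hc μ hμ i k hik
      have h4 := I.mul_mem_left (y i) h1
      have h5 := I.mul_mem_left (y k) h2
      have h6 := sub_mem (sub_mem h3 h4) (neg_mem h5)
      convert h6 using 1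
      ring
    have hτN : ∀ β γ : Fin w → ℕ, ∑ l, β l = D → ∑ l, γ l = j → τ β γ ∈ N := by
      intro β γ hβ hγ
      have hlt : ∑ l, γ l < ∑ l, β l := by omega
      obtain ⟨i, -, hi⟩ := Finset.exists_lt_of_sum_lt hlt
      obtain ⟨k, hk⟩ : ∃ k : Fin w, i ≠ k := by
        by_cases h0 : (i : ℕ) = 0
        · exact ⟨⟨1, by omega⟩, fun h => by rw [h] at h0; simp at h0⟩
        · exact ⟨⟨0, by omega⟩, fun h => by rw [h] at h0; simp at h0⟩
      exact tau_mem N τ i k hk (hκ i k hk) (γ i) β γ hβ hγ rfl hi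
    intro β hβ
    have h1 := hτ β hβ
    have h2 : ∑ γ ∈ piAntidiag (univ : Finset (Fin w)) j, τ β γ * mon y γ ∈ N ^ (j + 1) := by
      refine Ideal.sum_mem _ (fun γ hγ => ?_)
      have hγ' := (mem_piAntidiag_iff _ _).mp hγ
      rw [pow_succ']
      refine Ideal.mul_mem_mul (hτN β γ hβ hγ') ?_
      have := mon_mem_pow y N hyN γ
      rwa [hγ'] at this
    have h3 : c β = ∑ γ ∈ piAntidiag (univ : Finset (Fin w)) j, τ β γ * mon y γ +
        (c β - ∑ γ ∈ piAntidiag (univ : Finset (Fin w)) j, τ β γ * mon y γ) := by ring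
    rw [h3]
    exact Ideal.add_mem _ (Ideal.mem_sup_left h2) (Ideal.mem_sup_right h1)

end moves

end Vale.Agent.Lib.P202
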